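import Vale.Agent.P309.Main

namespace Vale.Agent.Results.P309.Lower

open Vale.Agent.P309
open scoped ENNReal

theorem result : ∀ C : ℝ, ∃ c' > (0 : ℝ), ∃ ε₀ > (0 : ℝ), ∀ d : ℕ, 4 ≤ d → ∀ ε : ℝ, 0 < ε →
    ε ≤ ε₀ → ∀ M N T : ℕ, (M : ℝ) ≤ C * d ^ 2 → N ≤ 2 ^ M → ∀ L : Learner d N,
    2 / 3 ≤ L.success T ε → c' * d * Real.log (1 / ε) ≤ T := by
  intro C
  obtain ⟨c, hc⟩ := exists_nat_ge C
  obtain ⟨a, ha⟩ : ∃ a : ℕ, a = 128 * (c + 1) + 58 := ⟨_, rfl⟩
  refine ⟨1 / (16 * (a + 1)), by positivity, Real.exp (-(2 * (a + 50))), Real.exp_pos _,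
    fun d hd ε hε hε0 M N T hM hN L hs => ?_⟩
  obtain ⟨k, hk⟩ : ∃ k, k = d / 4 := ⟨_, rfl⟩
  have hk0 : 0 < k := by omega
  have hdk : d ≤ 8 * k := by omega
  have hM' : M ≤ c * d ^ 2 := by
    have : (M : ℝ) ≤ c * d ^ 2 := hM.trans (by gcongr)
    exact_mod_cast this
  have hL : M + 1 ≤ 8 * (c + 1) * d * k := by
    have h1 : (c + 1) * d * d ≤ (c + 1) * d * (8 * k) := by gcongr
    nlinarith
  have hT : T ≤ (T / k + 1) * k := by
    have := Nat.lt_div_mul_add (a := T) hk0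
    nlinarith
  have h1 := hs.trans (success_le (β := d - 1 - 2 * k) (by omega) hk0 hdk hL hN L hT hε)
  have hε1 : ε ≤ 1 := hε0.trans (Real.exp_le_one_iff.2 (neg_nonpos.2 (by positivity)))
  have h2 : loss d k (M + 1) (8 * (c + 1) * d) ^ (T / k + 1) ≤ 2 ^ (a * (T + k)) := by
    refine (pow_le_pow_left' (loss_le hL) _).trans ?_
    rw [← pow_mul]
    refine pow_le_pow_right₀ one_le_two ?_
    have h3 : 2 * (8 * (c + 1) * d) + 6 * k + 6 * d + 4 ≤ a * k := by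
      have : (c + 1) * d ≤ (c + 1) * (8 * k) := by gcongr
      rw [ha]; nlinarith
    have h4 := Nat.mul_div_le T k
    calc _ ≤ a * k * (T / k + 1) := by gcongr
      _ = a * (k * (T / k) + k) := by ring
      _ ≤ _ := by gcongr
  have h3 : ((T : ℝ≥0∞) + 2) ≤ 2 ^ (T + 1) := by
    have : T + 1 < 2 ^ (T + 1) := Nat.lt_two_pow_self
    exact_mod_cast this
  have h4 : ENNReal.ofReal ε ^ (d - 1 - 2 * k) ≤ ENNReal.ofReal ε ^ k :=
    pow_le_pow_right_of_le_one' (ENNReal.ofReal_le_one.2 hε1) (by omega)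
  have h5 : (3 : ℝ≥0∞) ^ d ≤ (2 ^ 2) ^ (8 * k) :=
    (pow_le_pow_left' (by norm_num) d).trans (pow_le_pow_right₀ (by norm_num) hdk)
  have h6 : (14 : ℝ≥0∞) ^ d ≤ (2 ^ 4) ^ (8 * k) :=
    (pow_le_pow_left' (by norm_num) d).trans (pow_le_pow_right₀ (by norm_num) hdk)
  have h7 : (1 : ℝ≥0∞) ≤ 2 ^ (T + 2 + 48 * k + a * (T + k)) * ENNReal.ofReal ε ^ k := by
    calc (1 : ℝ≥0∞) ≤ 2 * (2 / 3) := by
          rw [← mul_div_assoc, ENNReal.le_div_iff_mul_le (by simp) (by simp)]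
          norm_num
      _ ≤ 2 * (2 ^ (T + 1) * ((2 ^ 2) ^ (8 * k) * ENNReal.ofReal ε ^ k *
          ((2 ^ 4) ^ (8 * k) * 2 ^ (a * (T + k))))) := by
          refine mul_le_mul_right (h1.trans ?_) _
          gcongr
      _ = _ := by simp only [← pow_mul]; ring
  have h8 : (1 : ℝ) ≤ 2 ^ (T + 2 + 48 * k + a * (T + k)) * ε ^ k := by
    rw [← ENNReal.one_le_ofReal, ENNReal.ofReal_mul (by positivity),
      ENNReal.ofReal_pow (by norm_num), ENNReal.ofReal_pow hε.le, ENNReal.ofReal_ofNat]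
    exact h7
  have h9 := Real.log_nonneg h8
  rw [Real.log_mul (by positivity) (by positivity), Real.log_pow, Real.log_pow] at h9
  have h10 : 2 * ((a : ℝ) + 50) ≤ -Real.log ε := by
    have := Real.log_le_log hε hε0
    rw [Real.log_exp] at this
    linarith
  have h11 : Real.log 2 ≤ 1 := by linarith [Real.log_two_lt_d9]
  have h12 := mul_le_of_le_one_right (Nat.cast_nonneg (T + 2 + 48 * k + a * (T + k))) h11
  have hk1 : (1 : ℝ) ≤ k := by exact_mod_cast hk0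
  have hdk' : (d : ℝ) ≤ 8 * k := by exact_mod_cast hdk
  push_cast at h9 h12
  rw [one_div ε, Real.log_inv, mul_assoc, one_div, inv_mul_le_iff₀ (by positivity)]
  have h13 := mul_le_mul_of_nonneg_left h10 (by positivity : (0 : ℝ) ≤ k)
  have h14 := mul_le_mul_of_nonneg_right hdk' (le_trans (by positivity) h10)
  nlinarith

end Vale.Agent.Results.P309.Lower
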